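import Vale.Agent.P254.H721.Env

/-!
P254, (SP_0), row P3 (helper368): the two tails `x ≤ -5`, `9 ≤ x` of the scalar certificate
`PHI = mu w + C + l4 x + t0 x^2 - p (mu th + l1 + l2 x)^2 - z (mu w + l3)^2`
of the columns (helper979, helper747), for arbitrary numbers, from the envelopes of `H721/Env.lean`.
-/

set_option autoImplicit false

namespace Vale.Agent.P254.SP.H368

open Set
open Vale.Agent.P254.H721

/-- **right tail of PHI** -/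
theorem phi_right {mu C l1 l2 l3 l4 t0 p z e : ℝ} (hmu : 0 ≤ mu) (hp : 0 ≤ p) (hz : 0 ≤ z)
    {N B0 : ℝ} (hN1 : mu * (501 / 1000) + l3 ≤ N) (hN2 : -N ≤ mu * (479 / 1000) + l3)
    (hB0 : B0 = mu * (7187 / 1000) + l1 + l2 * 9)
    (hA0 : 0 ≤ mu * (7082 / 1000) + l1 + l2 * 9) (hA1 : 0 ≤ mu * (708 / 1000) + l2)
    (h2 : p * (mu * (3 / 4) + l2) ^ 2 ≤ t0)
    (h1 : 2 * p * (B0 * (mu * (3 / 4) + l2)) ≤ l4 + 18 * t0)
    (h0 : e + p * B0 ^ 2 + z * N ^ 2 ≤ mu * (479 / 1000) + C + 9 * l4 + 81 * t0)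
    {x : ℝ} (hx : 9 ≤ x) :
    e ≤ mu * wf x + C + l4 * x + t0 * x ^ 2 - p * (mu * th x + l1 + l2 * x) ^ 2
      - z * (mu * wf x + l3) ^ 2 := by
  obtain ⟨X, hX, rfl⟩ : ∃ X, 0 ≤ X ∧ x = 9 + X := ⟨x - 9, by linarith, by ring⟩
  have hw1 := mul_le_mul_of_nonneg_left (wf_right_ge hx) hmu
  have hw2 := mul_le_mul_of_nonneg_left (wf_right_le hx) hmu
  have ht1 := mul_le_mul_of_nonneg_left (th_right_ge hx) hmu
  have ht2 := mul_le_mul_of_nonneg_left (th_right_le hx) hmu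
  have hAX := mul_nonneg hA1 hX
  have hu : (mu * th (9 + X) + l1 + l2 * (9 + X)) ^ 2 ≤ (B0 + (mu * (3 / 4) + l2) * X) ^ 2 := by
    have ha : 0 ≤ mu * th (9 + X) + l1 + l2 * (9 + X) := by nlinarith
    have hb : mu * th (9 + X) + l1 + l2 * (9 + X) ≤ B0 + (mu * (3 / 4) + l2) * X := by
      rw [hB0]; nlinarith
    exact pow_le_pow_left₀ ha hb 2
  have hv : (mu * wf (9 + X) + l3) ^ 2 ≤ N ^ 2 := by
    refine sq_le_sq' (by linarith) (by linarith)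
  have hpu := mul_le_mul_of_nonneg_left hu hp
  have hzv := mul_le_mul_of_nonneg_left hv hz
  have e1 : 0 ≤ (l4 + 18 * t0 - 2 * p * (B0 * (mu * (3 / 4) + l2))) * X :=
    mul_nonneg (by linarith) hX
  have e2 : 0 ≤ (t0 - p * (mu * (3 / 4) + l2) ^ 2) * X ^ 2 :=
    mul_nonneg (by linarith) (sq_nonneg X)
  nlinarith

/-- **left tail of PHI** -/
theorem phi_left {mu C l1 l2 l3 l4 t0 p z e : ℝ} (hmu : 0 ≤ mu) (hp : 0 ≤ p) (hz : 0 ≤ z)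
    {N B0 : ℝ} (hN1 : mu * (1 / 20) + l3 ≤ N) (hN2 : -N ≤ l3)
    (hB0 : B0 = mu * (21 / 100) + l1 - l2 * 5)
    (hA0 : 0 ≤ l1 - l2 * 5) (hA1 : l2 ≤ 0)
    (h2 : p * l2 ^ 2 ≤ t0)
    (h1 : 0 ≤ -l4 + 10 * t0 + 2 * p * (B0 * l2))
    (h0 : e + p * B0 ^ 2 + z * N ^ 2 ≤ C - 5 * l4 + 25 * t0)
    {x : ℝ} (hx : x ≤ -5) :
    e ≤ mu * wf x + C + l4 * x + t0 * x ^ 2 - p * (mu * th x + l1 + l2 * x) ^ 2
      - z * (mu * wf x + l3) ^ 2 := by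
  obtain ⟨X, hX, rfl⟩ : ∃ X, 0 ≤ X ∧ x = -5 - X := ⟨-5 - x, by linarith, by ring⟩
  have hw1 := mul_nonneg hmu (wf_pos (-5 - X)).le
  have hw2 := mul_le_mul_of_nonneg_left (wf_left hx) hmu
  have ht1 := mul_nonneg hmu (th_pos (-5 - X)).le
  have ht2 := mul_le_mul_of_nonneg_left (th_left hx) hmu
  have hAX := mul_nonneg (neg_nonneg.2 hA1) hX
  have hu : (mu * th (-5 - X) + l1 + l2 * (-5 - X)) ^ 2 ≤ (B0 - l2 * X) ^ 2 := by
    have ha : 0 ≤ mu * th (-5 - X) + l1 + l2 * (-5 - X) := by nlinarith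
    have hb : mu * th (-5 - X) + l1 + l2 * (-5 - X) ≤ B0 - l2 * X := by
      rw [hB0]; nlinarith
    exact pow_le_pow_left₀ ha hb 2
  have hv : (mu * wf (-5 - X) + l3) ^ 2 ≤ N ^ 2 := by
    refine sq_le_sq' (by linarith) (by linarith)
  have hpu := mul_le_mul_of_nonneg_left hu hp
  have hzv := mul_le_mul_of_nonneg_left hv hz
  have e1 : 0 ≤ (-l4 + 10 * t0 + 2 * p * (B0 * l2)) * X := mul_nonneg h1 hX
  have e2 : 0 ≤ (t0 - p * l2 ^ 2) * X ^ 2 := mul_nonneg (by linarith) (sq_nonneg X)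
  nlinarith

end Vale.Agent.P254.SP.H368
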